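import Mathlib.RingTheory.HahnSeries.Multiplication
import Mathlib.RingTheory.HahnSeries.Summable
import Mathlib.RingTheory.LaurentSeries
import Mathlib.Algebra.MonoidAlgebra.NoZeroDivisors
import Mathlib.Algebra.MonoidAlgebra.Basic
import Mathlib.Algebra.BigOperators.Finprod
import Mathlib.Algebra.MvPolynomial.Basic
import Mathlib.Tactic

/-!
# Laurent series with coefficients in a ring of Laurent polynomials

Bookkeeping: leading coefficients (`Lead`), the coefficients `cf f n v` of
`f ∈ k[ℤ × ℤ]((t))`, the product formula and the shear relation `Sh`.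
-/

namespace Vale.Agent.P279.H662

open HahnSeries

section Lead

variable {B : Type*} [CommRing B]

theorem coeff_mul_finset (f g : HahnSeries ℤ B) (n : ℤ) :
    ∃ s : Finset ℤ, (∀ i, f.coeff i ≠ 0 → g.coeff (n - i) ≠ 0 → i ∈ s) ∧
      (f * g).coeff n = ∑ i ∈ s, f.coeff i * g.coeff (n - i) := by
  classical
  refine ⟨(Finset.antidiagonal f.isPWO_support g.isPWO_support n).image Prod.fst, ?_, ?_⟩
  · intro i hi hi'
    rw [Finset.mem_image]
    refine ⟨(i, n - i), ?_, rfl⟩
    rw [Finset.mem_antidiagonal]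
    exact ⟨hi, hi', by ring⟩
  · rw [coeff_mul, Finset.sum_image]
    · refine Finset.sum_congr rfl fun x hx => ?_
      rw [Finset.mem_antidiagonal] at hx
      rw [show n - x.1 = x.2 by rw [← hx.2.2]; ring]
    · intro x hx y hy hxy
      rw [Finset.mem_coe, Finset.mem_antidiagonal] at hx hy
      have h1 := hx.2.2
      have h2 := hy.2.2
      ext
      · exact hxy
      · rw [← h2] at h1
        omega

/-- All coefficients below `e` vanish and the coefficient at `e` is `a`. -/
def Lead (f : HahnSeries ℤ B) (e : ℤ) (a : B) : Prop :=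
  (∀ n < e, f.coeff n = 0) ∧ f.coeff e = a

theorem Lead.mul {f g : HahnSeries ℤ B} {e e' : ℤ} {a a' : B} (hf : Lead f e a)
    (hg : Lead g e' a') : Lead (f * g) (e + e') (a * a') := by
  constructor
  · intro n hn
    obtain ⟨s, -, hs⟩ := coeff_mul_finset f g n
    rw [hs]
    refine Finset.sum_eq_zero fun i _ => ?_
    rcases lt_or_ge i e with h | h
    · rw [hf.1 i h, zero_mul]
    · rw [hg.1 (n - i) (by omega), mul_zero]
  · obtain ⟨s, hs0, hs⟩ := coeff_mul_finset f g (e + e')
    rw [hs, Finset.sum_eq_single e]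
    · rw [hf.2, show e + e' - e = e' by ring, hg.2]
    · intro i _ hi
      rcases lt_or_gt_of_ne hi with h | h
      · rw [hf.1 i h, zero_mul]
      · rw [hg.1 (e + e' - i) (by omega), mul_zero]
    · intro h
      by_contra h'
      exact h (hs0 e (left_ne_zero_of_mul h') (right_ne_zero_of_mul h'))

theorem Lead.add {f g : HahnSeries ℤ B} {e : ℤ} {a a' : B} (hf : Lead f e a)
    (hg : Lead g e a') : Lead (f + g) e (a + a') := by
  refine ⟨fun n hn => ?_, ?_⟩
  · rw [coeff_add, hf.1 n hn, hg.1 n hn, add_zero]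
  · rw [coeff_add, hf.2, hg.2]

theorem Lead.neg {f : HahnSeries ℤ B} {e : ℤ} {a : B} (hf : Lead f e a) :
    Lead (-f) e (-a) := by
  refine ⟨fun n hn => ?_, ?_⟩
  · rw [coeff_neg, hf.1 n hn, neg_zero]
  · rw [coeff_neg, hf.2]

theorem Lead.of_lt {f : HahnSeries ℤ B} {e e' : ℤ} {a : B} (hf : Lead f e a) (h : e' < e) :
    Lead f e' 0 :=
  ⟨fun n hn => hf.1 n (hn.trans h), hf.1 e' h⟩

theorem lead_zero (e : ℤ) : Lead (0 : HahnSeries ℤ B) e 0 := ⟨fun _ _ => rfl, rfl⟩

theorem lead_single (e : ℤ) (a : B) : Lead (single e a) e a :=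
  ⟨fun _ hn => coeff_single_of_ne hn.ne, coeff_single_same _ _⟩

theorem lead_one : Lead (1 : HahnSeries ℤ B) 0 1 := lead_single 0 1

theorem lead_C (a : B) : Lead (C a : HahnSeries ℤ B) 0 a := lead_single 0 a

theorem Lead.pow {f : HahnSeries ℤ B} {e : ℤ} {a : B} (hf : Lead f e a) (n : ℕ) :
    Lead (f ^ n) (n * e) (a ^ n) := by
  induction n with
  | zero => simpa using lead_one
  | succ n ih =>
    rw [pow_succ, pow_succ]
    have := ih.mul hf
    rwa [show (n : ℤ) * e + e = ((n + 1 : ℕ) : ℤ) * e by push_cast; ring] at this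

theorem Lead.sum {ι : Type*} (s : Finset ι) (f : ι → HahnSeries ℤ B) (e : ℤ) (a : ι → B)
    (h : ∀ i ∈ s, Lead (f i) e (a i)) : Lead (∑ i ∈ s, f i) e (∑ i ∈ s, a i) := by
  classical
  induction s using Finset.induction_on with
  | empty => simpa using lead_zero e
  | insert i s hi ih =>
    rw [Finset.sum_insert hi, Finset.sum_insert hi]
    exact (h i (Finset.mem_insert_self i s)).add
      (ih fun j hj => h j (Finset.mem_insert_of_mem hj))

theorem Lead.prod {ι : Type*} (s : Finset ι) (f : ι → HahnSeries ℤ B) (e : ι → ℤ) (a : ι → B)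
    (h : ∀ i ∈ s, Lead (f i) (e i) (a i)) : Lead (∏ i ∈ s, f i) (∑ i ∈ s, e i) (∏ i ∈ s, a i) := by
  classical
  induction s using Finset.induction_on with
  | empty => simpa using lead_one
  | insert i s hi ih =>
    rw [Finset.prod_insert hi, Finset.prod_insert hi, Finset.sum_insert hi]
    exact (h i (Finset.mem_insert_self i s)).mul
      (ih fun j hj => h j (Finset.mem_insert_of_mem hj))

theorem Lead.ne_zero {f : HahnSeries ℤ B} {e : ℤ} {a : B} (hf : Lead f e a) (ha : a ≠ 0) :
    f ≠ 0 := by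
  rintro rfl
  exact ha hf.2.symm

theorem exists_lead {f : HahnSeries ℤ B} (hf : f ≠ 0) : ∃ e a, a ≠ 0 ∧ Lead f e a := by
  refine ⟨f.order, f.coeff f.order, ?_, fun n hn => coeff_eq_zero_of_lt_order hn, rfl⟩
  rw [coeff_order_eq_zero.ne]
  exact hf

end Lead

section Double

variable {k : Type*} [Field k]

/-- Laurent polynomials in two variables. -/
abbrev R (k : Type*) [Field k] := AddMonoidAlgebra k (ℤ × ℤ)

/-- Laurent series in `t` over the Laurent polynomials. -/
abbrev A (k : Type*) [Field k] := HahnSeries ℤ (R k)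

/-- The coefficient of `t ^ n` and of the Laurent monomial `v`. -/
def cf (f : A k) (n : ℤ) (v : ℤ × ℤ) : k := (f.coeff n).coeff v

@[simp] theorem cf_zero (n : ℤ) (v : ℤ × ℤ) : cf (0 : A k) n v = 0 := rfl

theorem cf_add (f g : A k) (n : ℤ) (v : ℤ × ℤ) : cf (f + g) n v = cf f n v + cf g n v := by
  simp [cf]

theorem cf_sum {ι : Type*} (s : Finset ι) (f : ι → A k) (n : ℤ) (v : ℤ × ℤ) :
    cf (∑ i ∈ s, f i) n v = ∑ i ∈ s, cf (f i) n v := by
  classical
  induction s using Finset.induction_on with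
  | empty => simp
  | insert i s hi ih => rw [Finset.sum_insert hi, Finset.sum_insert hi, cf_add, ih]

theorem ext_cf {f g : A k} (h : ∀ n v, cf f n v = cf g n v) : f = g := by
  ext n v
  exact h n v

theorem exists_cf_ne {f : A k} (hf : f ≠ 0) : ∃ n v, cf f n v ≠ 0 := by
  by_contra h
  push Not at h
  exact hf (ext_cf fun n v => by rw [h n v, cf_zero])

theorem coeff_mul_R (x y : R k) (v : ℤ × ℤ) (s : Finset (ℤ × ℤ)) (hs : x.coeff.support ⊆ s) :
    (x * y).coeff v = ∑ u ∈ s, x.coeff u * y.coeff (v - u) := by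
  classical
  rw [AddMonoidAlgebra.coeff_mul]
  rw [Finsupp.sum_of_support_subset _ hs _ (by intro i _; simp [Finsupp.sum])]
  refine Finset.sum_congr rfl fun u _ => ?_
  rw [Finsupp.sum]
  rw [Finset.sum_eq_single (v - u)]
  · rw [if_pos (by abel)]
  · intro w _ hw
    rw [if_neg]
    intro h
    apply hw
    rw [← h]
    abel
  · intro h
    rw [Finsupp.notMem_support_iff] at h
    rw [h]
    simp

theorem cf_mul (f g : A k) (n : ℤ) (v : ℤ × ℤ) :
    cf (f * g) n v = ∑ᶠ q : ℤ × (ℤ × ℤ), cf f q.1 q.2 * cf g (n - q.1) (v - q.2) := by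
  classical
  obtain ⟨s, hs0, hs⟩ := coeff_mul_finset f g n
  set t : Finset (ℤ × ℤ) := s.biUnion fun i => (f.coeff i).coeff.support with ht
  have h1 : cf (f * g) n v = ∑ q ∈ s ×ˢ t, cf f q.1 q.2 * cf g (n - q.1) (v - q.2) := by
    rw [Finset.sum_product, cf, hs, AddMonoidAlgebra.coeff_sum, Finsupp.finsetSum_apply]
    refine Finset.sum_congr rfl fun i hi => ?_
    rw [coeff_mul_R _ _ _ t]
    · rfl
    · intro u hu
      exact Finset.mem_biUnion.2 ⟨i, hi, hu⟩
  rw [h1]
  refine (finsum_eq_sum_of_support_subset _ fun q hq => ?_).symm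
  rw [Function.mem_support] at hq
  have hq1 : cf f q.1 q.2 ≠ 0 := left_ne_zero_of_mul hq
  have hq2 : cf g (n - q.1) (v - q.2) ≠ 0 := right_ne_zero_of_mul hq
  have h2 : q.1 ∈ s := by
    refine hs0 _ (fun h => hq1 ?_) (fun h => hq2 ?_)
    · rw [cf, h]; rfl
    · rw [cf, h]; rfl
  rw [Finset.mem_coe, Finset.mem_product]
  exact ⟨h2, Finset.mem_biUnion.2 ⟨q.1, h2, Finsupp.mem_support_iff.2 hq1⟩⟩

/-- The reindexing bijection of a shear. -/
def shEquiv (l a c : ℤ) : (ℤ × (ℤ × ℤ)) ≃ (ℤ × (ℤ × ℤ)) where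
  toFun q := (q.1 + l * q.2.2 + a, (q.2.1, q.2.2 + c))
  invFun q := (q.1 - l * (q.2.2 - c) - a, (q.2.1, q.2.2 - c))
  left_inv q := by
    ext
    · simp only; ring
    · rfl
    · simp only; ring
  right_inv q := by
    ext
    · simp only; ring
    · rfl
    · simp only; ring

/-- `g` is the image of `f` under `t ^ n y ^ j x ^ p ↦ t ^ (n + l p + a) y ^ j x ^ (p + c)`. -/
def Sh (l a c : ℤ) (f g : A k) : Prop :=
  ∀ n v, cf g (n + l * v.2 + a) (v.1, v.2 + c) = cf f n v

theorem Sh.add {l a c : ℤ} {f g f' g' : A k} (h : Sh l a c f g) (h' : Sh l a c f' g') :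
    Sh l a c (f + f') (g + g') := fun n v => by rw [cf_add, cf_add, h, h']

theorem sh_zero (l a c : ℤ) : Sh l a c (0 : A k) 0 := fun n v => by simp

theorem Sh.sum {ι : Type*} {l a c : ℤ} (s : Finset ι) {f g : ι → A k}
    (h : ∀ i ∈ s, Sh l a c (f i) (g i)) : Sh l a c (∑ i ∈ s, f i) (∑ i ∈ s, g i) := fun n v => by
  rw [cf_sum, cf_sum]
  exact Finset.sum_congr rfl fun i hi => h i hi n v

theorem Sh.mul {l a c a' c' : ℤ} {f g f' g' : A k} (h : Sh l a c f g) (h' : Sh l a' c' f' g') :
    Sh l (a + a') (c + c') (f * f') (g * g') := fun n v => by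
  rw [cf_mul, cf_mul, ← finsum_comp_equiv (shEquiv l a c)]
  refine finsum_congr fun q => ?_
  have e1 := h q.1 q.2
  have e2 := h' (n - q.1) (v - q.2)
  simp only [shEquiv, Equiv.coe_fn_mk]
  rw [e1, ← e2]
  congr 2
  · simp only [Prod.snd_sub]; ring
  · ext
    · simp
    · simp only [Prod.snd_sub]; ring

end Double

end Vale.Agent.P279.H662
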