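import Vale.Agent.P279.H662.Inj

/-!
# The cubic form and its derivative
-/

namespace Vale.Agent.P279.H662

open MvPolynomial

section Form

variable {K : Type*} [CommRing K]

/-- The cubic form. -/
noncomputable def Fp (p q r : K) : MvPolynomial (Fin 3) K :=
  C p * (X 0 - 3 * X 1) ^ 3 + C q * (X 2 ^ 3 + (X 1 - X 2) ^ 3) +
    C r * ((X 0 - 3 * X 1) * X 2 * (X 1 - X 2))

/-- Its derivative in the variable `X 1`. -/
noncomputable def Wp (p q r : K) : MvPolynomial (Fin 3) K :=
  C (-9 * p) * (X 0 - 3 * X 1) ^ 2 + C (3 * q) * (X 1 - X 2) ^ 2 +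
    C r * (X 2 * (X 0 - 3 * X 1 - 3 * (X 1 - X 2)))

theorem hom_lin : (X 0 - 3 * X 1 : MvPolynomial (Fin 3) K).IsHomogeneous 1 := by
  have h0 := isHomogeneous_X K (0 : Fin 3)
  have h1 := isHomogeneous_X K (1 : Fin 3)
  have h3 : (3 * X 1 : MvPolynomial (Fin 3) K).IsHomogeneous 1 := by
    have := (isHomogeneous_C (Fin 3) (3 : K)).mul h1
    rwa [zero_add, map_ofNat] at this
  exact h0.sub h3

theorem hom_lin' : (X 1 - X 2 : MvPolynomial (Fin 3) K).IsHomogeneous 1 :=
  (isHomogeneous_X K (1 : Fin 3)).sub (isHomogeneous_X K (2 : Fin 3))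

theorem Fp_homog (p q r : K) : (Fp p q r).IsHomogeneous 3 := by
  have h2 := isHomogeneous_X K (2 : Fin 3)
  refine IsHomogeneous.add (IsHomogeneous.add ?_ ?_) ?_
  · have := (isHomogeneous_C (Fin 3) p).mul ((hom_lin (K := K)).pow 3)
    simpa using this
  · have := (isHomogeneous_C (Fin 3) q).mul ((h2.pow 3).add ((hom_lin' (K := K)).pow 3))
    simpa using this
  · have := (isHomogeneous_C (Fin 3) r).mul (((hom_lin (K := K)).mul h2).mul hom_lin')
    simpa using this

theorem Wp_homog (p q r : K) : (Wp p q r).IsHomogeneous 2 := by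
  have h2 := isHomogeneous_X K (2 : Fin 3)
  refine IsHomogeneous.add (IsHomogeneous.add ?_ ?_) ?_
  · have := (isHomogeneous_C (Fin 3) (-9 * p)).mul ((hom_lin (K := K)).pow 2)
    rwa [zero_add] at this
  · have := (isHomogeneous_C (Fin 3) (3 * q)).mul ((hom_lin' (K := K)).pow 2)
    rwa [zero_add] at this
  · have h3 : (3 * (X 1 - X 2) : MvPolynomial (Fin 3) K).IsHomogeneous 1 := by
      have := (isHomogeneous_C (Fin 3) (3 : K)).mul (hom_lin' (K := K))
      rwa [zero_add, map_ofNat] at this
    have := (isHomogeneous_C (Fin 3) r).mul (h2.mul ((hom_lin (K := K)).sub h3))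
    rwa [zero_add] at this

theorem coeff_pure {G : MvPolynomial (Fin 3) K} {d : ℕ} (hG : G.IsHomogeneous d) :
    MvPolynomial.coeff (Finsupp.single 1 d) G = MvPolynomial.eval ![0, 1, 0] G := by
  classical
  rw [MvPolynomial.eval_eq']
  by_cases hd : Finsupp.single 1 d ∈ G.support
  · rw [Finset.sum_eq_single (Finsupp.single 1 d)]
    · simp [Fin.prod_univ_three]
    · intro α hα hne
      have h1 := homog_sum hG hα
      have h2 : α 0 ≠ 0 ∨ α 2 ≠ 0 := by
        by_contra hc
        push Not at hc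
        apply hne
        ext i
        fin_cases i
        · simpa using hc.1
        · change α 1 = (Finsupp.single 1 d : Fin 3 →₀ ℕ) 1
          rw [Finsupp.single_eq_same]
          omega
        · simpa using hc.2
      rw [Fin.prod_univ_three]
      rcases h2 with h2 | h2
      · simp [h2]
      · simp [h2]
    · intro h
      exact absurd hd h
  · rw [notMem_support_iff] at hd
    rw [hd]
    symm
    refine Finset.sum_eq_zero fun α hα => ?_
    have h1 := homog_sum hG hα
    have h2 : α 0 ≠ 0 ∨ α 2 ≠ 0 := by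
      by_contra hc
      push Not at hc
      rw [MvPolynomial.mem_support_iff] at hα
      apply hα
      rw [← hd]
      congr 1
      ext i
      fin_cases i
      · simpa using hc.1
      · change α 1 = (Finsupp.single 1 d : Fin 3 →₀ ℕ) 1
        rw [Finsupp.single_eq_same]
        omega
      · simpa using hc.2
    rw [Fin.prod_univ_three]
    rcases h2 with h2 | h2
    · simp [h2]
    · simp [h2]

theorem Fp_coeff (p q r : K) :
    MvPolynomial.coeff (Finsupp.single 1 3) (Fp p q r) = -27 * p + q := by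
  rw [coeff_pure (Fp_homog p q r), Fp]
  simp
  ring

theorem Wp_coeff (p q r : K) :
    MvPolynomial.coeff (Finsupp.single 1 2) (Wp p q r) = 3 * (-27 * p + q) := by
  rw [coeff_pure (Wp_homog p q r), Wp]
  simp
  ring

end Form

variable {k : Type*} [Field k]

/-- The cubic relation satisfied by `Y`. -/
theorem exists_cubic [CharZero k] (al ga : ℤ) (hal : 1 ≤ al) :
    ∃ p q r : HahnSeries ℤ k, -27 * p + q ≠ 0 ∧ eval₂ (io k) (YY k al ga hal) (Fp p q r) = 0 ∧
      eval₂ (io k) (YY k al ga hal) (Wp p q r) ≠ 0 := by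
  obtain ⟨a, b, ha, hab⟩ := exists_relation (k := k) al ga hal
  set τ : HahnSeries ℤ k := HahnSeries.single (-(2 * al)) 1 with hτ
  set x0 := th k al ga 0 0 hal with hx0
  set X1 := th k al ga (2 * al) 1 hal with hX1
  set X2 := th k al ga (2 * al) 2 hal with hX2
  have hinv : τ * HahnSeries.single (2 * al) 1 = 1 := by
    rw [hτ, HahnSeries.single_mul_single]
    simp
  have e1 : th k al ga 0 1 hal = io k τ * X1 := by
    rw [hX1, th_eq_mul al ga (2 * al) 1, ← mul_assoc, ← map_mul, hinv, map_one, one_mul]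
  have e2 : th k al ga 0 2 hal = io k τ * X2 := by
    rw [hX2, th_eq_mul al ga (2 * al) 2, ← mul_assoc, ← map_mul, hinv, map_one, one_mul]
  rw [e1, e2] at hab
  have hne : -27 * a + a * τ ^ 3 ≠ 0 := by
    rw [show -27 * a + a * τ ^ 3 = a * (τ ^ 3 - 27) by ring]
    refine mul_ne_zero ha ?_
    intro h
    have h1 : (τ ^ 3 - 27).coeff (3 * (-(2 * al))) = 0 := by rw [h]; rfl
    have h2 : (27 : HahnSeries ℤ k) = HahnSeries.C 27 := by rw [map_ofNat]
    rw [hτ, HahnSeries.single_pow, h2, HahnSeries.coeff_sub, HahnSeries.C_apply,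
      HahnSeries.coeff_single, HahnSeries.coeff_single_of_ne (by omega)] at h1
    simp at h1
  refine ⟨a, a * τ ^ 3, -b * τ ^ 2, hne, ?_, ?_⟩
  · rw [Fp]
    simp only [eval₂_add, eval₂_mul, eval₂_sub, eval₂_pow, eval₂_C, eval₂_X, eval₂_ofNat]
    rw [YY]
    simp only [Matrix.cons_val_zero, Matrix.cons_val_one, Matrix.cons_val]
    rw [map_mul, map_mul, map_pow, map_pow, map_neg]
    linear_combination hab
  · intro h
    have h3 := inj_YY al ga hal (Wp_homog a (a * τ ^ 3) (-b * τ ^ 2)) (fun α hα => by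
      have := homog_sum (Wp_homog a (a * τ ^ 3) (-b * τ ^ 2)) hα
      omega) h
    have h4 := Wp_coeff a (a * τ ^ 3) (-b * τ ^ 2)
    rw [h3, MvPolynomial.coeff_zero] at h4
    rcases mul_eq_zero.1 h4.symm with h5 | h5
    · have h6 := congrArg (fun f => HahnSeries.coeff f 0) h5
      have h7 : (3 : HahnSeries ℤ k) = HahnSeries.C 3 := by rw [map_ofNat]
      rw [h7, HahnSeries.C_apply] at h6
      simp at h6
    · exact hne h5

end Vale.Agent.P279.H662
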