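import Vale.Agent.P279.H662.LA
import Vale.Agent.P279.H765.Glue2
import Vale.Agent.P279.H765.QsZ

/-!
# Nagata's conjecture
-/

namespace Vale.Agent.P279.H662

open MvPolynomial

theorem laStmt2_765 {k : Type*} [Field k] [CharZero k] {b m : ℕ} (hm : 1 ≤ m) (hmb : m ≤ b) :
    H765.LAStmt2 k b (H765.QsZ b m) := by
  obtain ⟨W, p, hW, hp⟩ := laStmt2 (k := k) hm hmb
  refine ⟨W, p, hW, fun P hP hP0 => ?_⟩
  obtain ⟨n1, n2, f, hf, hfS, hn⟩ := hp P hP hP0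
  refine ⟨n1, n2, f, hf, fun s hs => ?_, ?_⟩
  · by_contra hne
    exact hs (H765.mem_QsZ_of (hfS s hne))
  · have e1 : H765.mapRH (H765.io k) = io2 k := by
      ext x n1 n2
      rfl
    rw [e1]
    exact hn

/-- **Nagata's conjecture.** -/
theorem nagata (r : ℕ) (hr : 10 ≤ r) : VeryGenerally r fun p =>
    ∀ (d : ℕ) (F : MvPolynomial (Fin 3) ℂ), 1 ≤ d → F.IsHomogeneous d → F ≠ 0 →
      ∀ m : Fin r → ℕ, (∀ i, MultAtLeast F (p i) (m i)) →
        ∑ i, (m i : ℝ) < d * √(r : ℝ) :=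
  H765.nagata_of_LA2 (fun _ _ hm hmb => laStmt2_765 hm hmb.le) r hr

end Vale.Agent.P279.H662
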