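import Vale.Agent.P279.H662.Map

/-!
# Leading coefficients of evaluated polynomials
-/

namespace Vale.Agent.P279.H662

open HahnSeries MvPolynomial

variable {B0 B : Type*} [CommRing B0] [CommRing B]

/-- The polynomial of the coefficients at `e`. -/
noncomputable def cpart (e : ℤ) (G : MvPolynomial (Fin 3) (HahnSeries ℤ B0)) :
    MvPolynomial (Fin 3) B0 :=
  ∑ α ∈ G.support, monomial α ((MvPolynomial.coeff α G).coeff e)

theorem coeff_cpart (e : ℤ) (G : MvPolynomial (Fin 3) (HahnSeries ℤ B0)) (α : Fin 3 →₀ ℕ) :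
    MvPolynomial.coeff α (cpart e G) = (MvPolynomial.coeff α G).coeff e := by
  classical
  rw [cpart, MvPolynomial.coeff_sum]
  simp only [coeff_monomial]
  rw [Finset.sum_ite_eq' G.support α]
  split_ifs with h
  · rfl
  · rw [notMem_support_iff] at h
    rw [h]
    rfl

theorem mem_support_of_cpart {e : ℤ} {G : MvPolynomial (Fin 3) (HahnSeries ℤ B0)}
    {α : Fin 3 →₀ ℕ} (h : α ∈ (cpart e G).support) : α ∈ G.support := by
  rw [MvPolynomial.mem_support_iff, coeff_cpart] at h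
  rw [MvPolynomial.mem_support_iff]
  intro h'
  rw [h'] at h
  exact h rfl

theorem cpart_homog {e : ℤ} {G : MvPolynomial (Fin 3) (HahnSeries ℤ B0)} {d : ℕ}
    (hG : G.IsHomogeneous d) : (cpart e G).IsHomogeneous d := by
  intro α hα
  exact hG (MvPolynomial.mem_support_iff.1 (mem_support_of_cpart
    (MvPolynomial.mem_support_iff.2 hα)))

theorem lead_eval2 (φ : B0 →+* B) (Φ : HahnSeries ℤ B0 →+* HahnSeries ℤ B)
    (hΦ : ∀ f n, (Φ f).coeff n = φ (f.coeff n)) (p : Fin 3 → HahnSeries ℤ B) (a : Fin 3 → B)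
    (hp : ∀ i, Lead (p i) 0 (a i)) (G : MvPolynomial (Fin 3) (HahnSeries ℤ B0)) (e : ℤ)
    (hG : ∀ α n, n < e → (MvPolynomial.coeff α G).coeff n = 0) :
    Lead (eval₂ Φ p G) e (eval₂ φ a (cpart e G)) := by
  classical
  rw [eval₂_eq, cpart, eval₂_sum]
  refine Lead.sum _ _ _ _ fun α _ => ?_
  rw [eval₂_monomial]
  have h1 : Lead (Φ (MvPolynomial.coeff α G)) e (φ ((MvPolynomial.coeff α G).coeff e)) := by
    refine ⟨fun n hn => ?_, hΦ _ _⟩
    rw [hΦ, hG α n hn, map_zero]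
  have h2 := Lead.prod α.support (fun i => p i ^ α i) (fun i => (α i : ℤ) * 0)
    (fun i => a i ^ α i) (fun i _ => (hp i).pow (α i))
  have h3 := h1.mul h2
  simp only [mul_zero, Finset.sum_const_zero, add_zero] at h3
  exact h3

theorem eval2_mul_homog (φ : B0 →+* B) (a : Fin 3 → B) (c : B) {d : ℕ}
    {G : MvPolynomial (Fin 3) B0} (hG : G.IsHomogeneous d) :
    eval₂ φ (fun i => c * a i) G = c ^ d * eval₂ φ a G := by
  rw [eval₂_eq', eval₂_eq', Finset.mul_sum]
  refine Finset.sum_congr rfl fun α hα => ?_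
  have h1 : α 0 + α 1 + α 2 = d := by
    have := hG (MvPolynomial.mem_support_iff.1 hα)
    rw [Finsupp.weight_apply, Finsupp.sum_fintype _ _ (by simp)] at this
    simpa [Fin.sum_univ_three] using this
  rw [Fin.prod_univ_three, Fin.prod_univ_three, ← h1]
  ring

theorem exists_level (b : ℕ) (G : ℕ → MvPolynomial (Fin 3) (HahnSeries ℤ B0))
    (hne : ∃ j ≤ b, G j ≠ 0) :
    ∃ ν : ℤ, (∀ j ≤ b, ∀ α n, n < ν - ((b : ℤ) - j) → (MvPolynomial.coeff α (G j)).coeff n = 0) ∧
      ∃ j ≤ b, cpart (ν - ((b : ℤ) - j)) (G j) ≠ 0 := by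
  classical
  set s : Finset (Σ _ : ℕ, (Fin 3 →₀ ℕ)) :=
    (Finset.range (b + 1)).sigma fun j => (G j).support with hs
  have hsne : s.Nonempty := by
    obtain ⟨j, hj, hGj⟩ := hne
    obtain ⟨α, hα⟩ := Finset.nonempty_iff_ne_empty.2 (mt support_eq_empty.1 hGj)
    exact ⟨⟨j, α⟩, Finset.mem_sigma.2 ⟨Finset.mem_range.2 (show j < b + 1 by omega), hα⟩⟩
  obtain ⟨x, hx, hmin⟩ := Finset.exists_min_image s
    (fun y => (MvPolynomial.coeff y.2 (G y.1)).order + ((b : ℤ) - y.1)) hsne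
  refine ⟨(MvPolynomial.coeff x.2 (G x.1)).order + ((b : ℤ) - x.1), ?_, x.1, ?_, ?_⟩
  · intro j hj α n hn
    by_cases hα : α ∈ (G j).support
    · have := hmin ⟨j, α⟩ (Finset.mem_sigma.2 ⟨Finset.mem_range.2 (show j < b + 1 by omega), hα⟩)
      simp only at this
      exact coeff_eq_zero_of_lt_order (by omega)
    · rw [notMem_support_iff] at hα
      rw [hα]
      rfl
  · have := (Finset.mem_sigma.1 hx).1
    rw [Finset.mem_range] at this
    omega
  · intro h
    have h1 := coeff_cpart ((MvPolynomial.coeff x.2 (G x.1)).order + ((b : ℤ) - x.1) -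
      ((b : ℤ) - x.1)) (G x.1) x.2
    rw [h, add_sub_cancel_right] at h1
    have h2 := (Finset.mem_sigma.1 hx).2
    rw [MvPolynomial.mem_support_iff] at h2
    exact (coeff_order_eq_zero.ne.2 h2) h1.symm

end Vale.Agent.P279.H662
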