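import Vale.Agent.P279.H662.YY
import Vale.Agent.P279.H662.LeadEval

/-!
# Injectivity: forms of degree at most two in the middle variable do not vanish at `Y`
-/

namespace Vale.Agent.P279.H662

open HahnSeries MvPolynomial

variable {k : Type*} [Field k]

/-- Evaluation at `x = -1`. -/
noncomputable def evNeg (k : Type*) [Field k] : R k →ₐ[k] k :=
  AddMonoidAlgebra.lift k k (ℤ × ℤ)
    ((Units.coeHom k).comp ((zpowersHom kˣ (-1)).comp
      (AddMonoidHom.toMultiplicative (AddMonoidHom.snd ℤ ℤ))))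

theorem evNeg_xx : evNeg k (xx k) = -1 := by
  rw [evNeg, AddMonoidAlgebra.lift_single]
  simp [zpowersHom_apply]

theorem one_add_xx_ne : (1 + xx k : R k) ≠ 0 := by
  intro h
  have h1 : (1 + xx k : R k).coeff (0, 1) = 0 := by rw [h]; rfl
  rw [AddMonoidAlgebra.one_def, AddMonoidAlgebra.coeff_add, Finsupp.add_apply,
      AddMonoidAlgebra.coeff_single, AddMonoidAlgebra.coeff_single, Finsupp.single_apply,
      Finsupp.single_apply] at h1
  simp [Prod.ext_iff] at h1

theorem homog_sum {K : Type*} [CommRing K] {d : ℕ} {G : MvPolynomial (Fin 3) K}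
    (hG : G.IsHomogeneous d) {α : Fin 3 →₀ ℕ} (hα : α ∈ G.support) : α 0 + α 1 + α 2 = d := by
  have := hG (MvPolynomial.mem_support_iff.1 hα)
  rw [Finsupp.weight_apply, Finsupp.sum_fintype _ _ (by simp)] at this
  simpa [Fin.sum_univ_three] using this

theorem inj_mod {d : ℕ} {G : MvPolynomial (Fin 3) k} (hG : G.IsHomogeneous d)
    (h2 : ∀ α ∈ G.support, α 1 ≤ 2)
    (h0 : eval₂ (CR k) ![(1 + xx k) ^ 3, xx k * (1 + xx k), xx k] G = 0) : G = 0 := by
  classical
  by_contra hne
  obtain ⟨α0, hα0, hmin⟩ := Finset.exists_min_image G.support (fun α => 3 * α 0 + α 1)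
    (Finset.nonempty_iff_ne_empty.2 (mt support_eq_empty.1 hne))
  set e := 3 * α0 0 + α0 1 with he
  have h1 : eval₂ (CR k) ![(1 + xx k) ^ 3, xx k * (1 + xx k), xx k] G =
      (1 + xx k) ^ e * ∑ α ∈ G.support, CR k (MvPolynomial.coeff α G) *
        ((1 + xx k) ^ (3 * α 0 + α 1 - e) * xx k ^ (α 1 + α 2)) := by
    rw [eval₂_eq', Finset.mul_sum]
    refine Finset.sum_congr rfl fun α hα => ?_
    rw [Fin.prod_univ_three]
    have h3 : 3 * α 0 + α 1 = e + (3 * α 0 + α 1 - e) := by
      have := hmin α hα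
      omega
    have h4 : ((1 + xx k) ^ 3) ^ α 0 * (xx k * (1 + xx k)) ^ α 1 * xx k ^ α 2 =
        (1 + xx k) ^ (3 * α 0 + α 1) * xx k ^ (α 1 + α 2) := by
      rw [mul_pow, ← pow_mul, pow_add, pow_add]
      ring
    change CR k (MvPolynomial.coeff α G) *
      (((1 + xx k) ^ 3) ^ α 0 * (xx k * (1 + xx k)) ^ α 1 * xx k ^ α 2) = _
    rw [h4, h3, pow_add]
    simp only [add_tsub_cancel_left]
    ring
  rw [h1] at h0
  have h5 := (mul_eq_zero.1 h0).resolve_left (pow_ne_zero _ one_add_xx_ne)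
  have h6 := congrArg (evNeg k) h5
  rw [map_zero, map_sum, Finset.sum_eq_single α0] at h6
  · rw [map_mul, map_mul, map_pow, map_pow, evNeg_xx, AlgHom.commutes] at h6
    have h7 : 3 * α0 0 + α0 1 - e = 0 := by omega
    rw [h7, pow_zero, one_mul] at h6
    rcases mul_eq_zero.1 h6 with h8 | h8
    · exact (MvPolynomial.mem_support_iff.1 hα0) h8
    · exact pow_ne_zero _ (neg_ne_zero.2 one_ne_zero) h8
  · intro α hα hαne
    rw [map_mul, map_mul, map_pow, map_add, map_one, evNeg_xx, add_neg_cancel]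
    have h8 : 3 * α 0 + α 1 - e ≠ 0 := by
      intro h9
      have h10 := hmin α hα
      have h11 : 3 * α 0 + α 1 = 3 * α0 0 + α0 1 := by omega
      have h12 := h2 α hα
      have h13 := h2 α0 hα0
      have h14 := homog_sum hG hα
      have h15 := homog_sum hG hα0
      apply hαne
      ext i
      fin_cases i
      · change α 0 = α0 0; omega
      · change α 1 = α0 1; omega
      · change α 2 = α0 2; omega
    rw [zero_pow h8]
    simp
  · intro h
    exact absurd hα0 h

theorem inj_YY (al ga : ℤ) (hal : 1 ≤ al) {d : ℕ} {G : MvPolynomial (Fin 3) (HahnSeries ℤ k)}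
    (hG : G.IsHomogeneous d) (h2 : ∀ α ∈ G.support, α 1 ≤ 2)
    (h0 : eval₂ (io k) (YY k al ga hal) G = 0) : G = 0 := by
  by_contra hne
  have hsh := Sh.eval (sh_YY (k := k) al ga hal) hG
  have h3 : eval₂ (io k) (YY k al (3 * al) hal) G = 0 := by
    refine ext_cf fun n v => ?_
    rw [← hsh n v, h0]
    rfl
  obtain ⟨ν, hν, j, hj, hj'⟩ := exists_level 0 (fun _ => G) ⟨0, le_rfl, hne⟩
  have hj0 : j = 0 := by omega
  subst hj0
  have hν' : ∀ α, ∀ n < ν, (MvPolynomial.coeff α G).coeff n = 0 := fun α n hn =>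
    hν 0 le_rfl α n (by simpa using hn)
  have hj'' : cpart ν G ≠ 0 := by simpa using hj'
  have hlead := lead_eval2 (CR k) (io k) (fun _ _ => rfl) (YY k al (3 * al) hal) _
    (lead_YY (k := k) al hal) G ν hν'
  rw [h3] at hlead
  have h4 := hlead.2
  refine hj'' (inj_mod (cpart_homog hG) (fun α hα => h2 α (mem_support_of_cpart hα)) ?_)
  exact h4.symm

end Vale.Agent.P279.H662
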