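import Vale.Agent.P279.H662.Cubic
import Vale.Agent.P279.H142.Window
import Vale.Agent.P279.H693.Div

/-!
# Lemma A: the two-level degeneration statement
-/

namespace Vale.Agent.P279.H662

open MvPolynomial

variable {k : Type*} [Field k]

/-- The ring of series in `u` over `A k`. -/
abbrev T2 (k : Type*) [Field k] := HahnSeries ℤ (A k)

/-- The field of series in `u` over `k((t))`. -/
abbrev L2 (k : Type*) [Field k] := HahnSeries ℤ (HahnSeries ℤ k)

/-- The embedding of the field. -/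
noncomputable abbrev io2 (k : Type*) [Field k] : L2 k →+* T2 k := mapH (io k)

/-- **The two-level degeneration statement.** -/
def LAStmt2 (k : Type*) [Field k] (b : ℕ) (S : Finset (ℕ × ℕ)) : Prop :=
  ∃ (W : R k) (p : Fin 3 → T2 k), W ≠ 0 ∧
    ∀ P : MvPolynomial (Fin 3) (L2 k), P.IsHomogeneous (3 * b) → P ≠ 0 →
      ∃ (n1 n2 : ℤ) (f : R k), f ≠ 0 ∧
        (∀ s, f.coeff s ≠ 0 → ∃ t ∈ S, s = ((t.1 : ℤ), (t.2 : ℤ))) ∧
        ((eval₂ (io2 k) p P).coeff n1).coeff n2 = W * f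

section Point

variable (z : A k) (Y : Fin 3 → A k)

/-- The point. -/
noncomputable def pt : Fin 3 → T2 k :=
  ![HahnSeries.C (z * Y 0), HahnSeries.C (z * Y 1) + HahnSeries.single 1 1,
    HahnSeries.C (z * Y 2)]

theorem lead_pt (i : Fin 3) : Lead (pt z Y i) 0 (z * Y i) := by
  fin_cases i
  · exact lead_C _
  · have h1 := lead_C (z * Y 1)
    have h2 := (lead_single (B := A k) 1 1).of_lt (show (0 : ℤ) < 1 by norm_num)
    have h3 := h1.add h2
    rw [add_zero] at h3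
    exact h3
  · exact lead_C _

theorem io2_C (c : HahnSeries ℤ k) : io2 k (HahnSeries.C c) = HahnSeries.C (io k c) := by
  ext1
  funext n
  rw [mapH_coeff, HahnSeries.C_apply, HahnSeries.C_apply, HahnSeries.coeff_single,
    HahnSeries.coeff_single]
  split
  · rfl
  · rw [map_zero]

theorem eval_Fp {K T : Type*} [CommRing K] [CommRing T] (φ : K →+* T) (y : Fin 3 → T)
    (p q r : K) : eval₂ φ y (Fp p q r) = φ p * (y 0 - 3 * y 1) ^ 3 +
      φ q * (y 2 ^ 3 + (y 1 - y 2) ^ 3) + φ r * ((y 0 - 3 * y 1) * y 2 * (y 1 - y 2)) := by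
  rw [Fp]
  simp only [eval₂_add, eval₂_mul, eval₂_sub, eval₂_pow, eval₂_C, eval₂_X, eval₂_ofNat]

theorem eval_Wp {K T : Type*} [CommRing K] [CommRing T] (φ : K →+* T) (y : Fin 3 → T)
    (p q r : K) : eval₂ φ y (Wp p q r) = -9 * φ p * (y 0 - 3 * y 1) ^ 2 +
      3 * φ q * (y 1 - y 2) ^ 2 + φ r * (y 2 * (y 0 - 3 * y 1 - 3 * (y 1 - y 2))) := by
  rw [Wp]
  simp only [eval₂_add, eval₂_mul, eval₂_sub, eval₂_pow, eval₂_C, eval₂_X, eval₂_ofNat,
      eval₂_neg, map_mul, map_neg, map_ofNat]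

theorem ring_id {T : Type*} [CommRing T] (P Q S y0 y1 y2 z u : T) :
    P * (z * y0 - 3 * (z * y1 + u)) ^ 3 + Q * ((z * y2) ^ 3 + ((z * y1 + u) - z * y2) ^ 3) +
      S * ((z * y0 - 3 * (z * y1 + u)) * (z * y2) * ((z * y1 + u) - z * y2)) =
    z ^ 3 * (P * (y0 - 3 * y1) ^ 3 + Q * (y2 ^ 3 + (y1 - y2) ^ 3) +
      S * ((y0 - 3 * y1) * y2 * (y1 - y2))) +
    z ^ 2 * (-9 * P * (y0 - 3 * y1) ^ 2 + 3 * Q * (y1 - y2) ^ 2 +
      S * (y2 * (y0 - 3 * y1 - 3 * (y1 - y2)))) * u +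
    u ^ 2 * (z * (27 * P * (y0 - 3 * y1) + 3 * Q * (y1 - y2) - 3 * S * y2) +
      u * (-27 * P + Q)) := by
  ring

theorem C_eval_Fp (φ : HahnSeries ℤ k →+* A k) (Y : Fin 3 → A k) (p q r : HahnSeries ℤ k) :
    (HahnSeries.C (eval₂ φ Y (Fp p q r)) : T2 k) =
      HahnSeries.C (φ p) * (HahnSeries.C (Y 0) - 3 * HahnSeries.C (Y 1)) ^ 3 +
      HahnSeries.C (φ q) * (HahnSeries.C (Y 2) ^ 3 + (HahnSeries.C (Y 1) -
        HahnSeries.C (Y 2)) ^ 3) +
      HahnSeries.C (φ r) * ((HahnSeries.C (Y 0) - 3 * HahnSeries.C (Y 1)) *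
        HahnSeries.C (Y 2) * (HahnSeries.C (Y 1) - HahnSeries.C (Y 2))) := by
  rw [eval_Fp]
  simp only [map_add, map_mul, map_sub, map_pow, map_ofNat]

theorem C_eval_Wp (φ : HahnSeries ℤ k →+* A k) (Y : Fin 3 → A k) (p q r : HahnSeries ℤ k) :
    (HahnSeries.C (eval₂ φ Y (Wp p q r)) : T2 k) =
      -9 * HahnSeries.C (φ p) * (HahnSeries.C (Y 0) - 3 * HahnSeries.C (Y 1)) ^ 2 +
      3 * HahnSeries.C (φ q) * (HahnSeries.C (Y 1) - HahnSeries.C (Y 2)) ^ 2 +
      HahnSeries.C (φ r) * (HahnSeries.C (Y 2) * (HahnSeries.C (Y 0) - 3 * HahnSeries.C (Y 1) -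
        3 * (HahnSeries.C (Y 1) - HahnSeries.C (Y 2)))) := by
  rw [eval_Wp]
  simp only [map_add, map_mul, map_sub, map_pow, map_neg, map_ofNat]

theorem lead_u_aux {B : Type*} [CommRing B] (c1 c2 c3 : B) :
    Lead (HahnSeries.C c1 * HahnSeries.single 1 1 + HahnSeries.single 1 1 ^ 2 *
      (HahnSeries.C c2 + HahnSeries.single 1 1 * HahnSeries.C c3) : HahnSeries ℤ B) 1 c1 := by
  have l1 := (lead_C (B := B) c1).mul (lead_single (B := B) 1 1)
  have l2 := ((lead_single (B := B) 1 1).mul (lead_C (B := B) c3)).of_lt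
    (show (0 : ℤ) < 1 + 0 by norm_num)
  have l3 := (lead_C (B := B) c2).add l2
  have l4 := (((lead_single (B := B) 1 1).pow 2).mul l3).of_lt
    (show (0 + 1 : ℤ) < ((2 : ℕ) : ℤ) * 1 + 0 by norm_num)
  have l5 := l1.add l4
  rw [mul_one, add_zero, zero_add] at l5
  exact l5

theorem lead_F {p q r : HahnSeries ℤ k} (h0 : eval₂ (io k) Y (Fp p q r) = 0) :
    Lead (eval₂ (io2 k) (pt z Y) (Fp (HahnSeries.C p) (HahnSeries.C q) (HahnSeries.C r))) 1
      (z ^ 2 * eval₂ (io k) Y (Wp p q r)) := by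
  have e0 : pt z Y 0 = HahnSeries.C z * HahnSeries.C (Y 0) := by rw [← map_mul]; rfl
  have e1 : pt z Y 1 = HahnSeries.C z * HahnSeries.C (Y 1) + HahnSeries.single 1 1 := by
    rw [← map_mul]; rfl
  have e2 : pt z Y 2 = HahnSeries.C z * HahnSeries.C (Y 2) := by rw [← map_mul]; rfl
  rw [eval_Fp, io2_C, io2_C, io2_C, e0, e1, e2, ring_id, ← C_eval_Fp, ← C_eval_Wp, h0, map_zero,
    mul_zero, zero_add]
  have e3 : (HahnSeries.C z : T2 k) * (27 * HahnSeries.C (io k p) *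
      (HahnSeries.C (Y 0) - 3 * HahnSeries.C (Y 1)) + 3 * HahnSeries.C (io k q) *
      (HahnSeries.C (Y 1) - HahnSeries.C (Y 2)) - 3 * HahnSeries.C (io k r) *
      HahnSeries.C (Y 2)) = HahnSeries.C (z * (27 * io k p * (Y 0 - 3 * Y 1) +
      3 * io k q * (Y 1 - Y 2) - 3 * io k r * Y 2)) := by
    simp only [map_add, map_mul, map_sub, map_ofNat]
  have e4 : (-27 * HahnSeries.C (io k p) + HahnSeries.C (io k q) : T2 k) =
      HahnSeries.C (-27 * io k p + io k q) := by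
    simp only [map_add, map_mul, map_neg, map_ofNat]
  have e5 : (HahnSeries.C z : T2 k) ^ 2 * HahnSeries.C (eval₂ (io k) Y (Wp p q r)) =
      HahnSeries.C (z ^ 2 * eval₂ (io k) Y (Wp p q r)) := by
    rw [map_mul, map_pow]
  rw [e3, e4, e5]
  exact lead_u_aux _ _ _

end Point

theorem sum_ring {B : Type*} [CommRing B] (y w : B) (b : ℕ) (g : ℕ → B) :
    ∑ j ∈ Finset.range (b + 1), ((y * w) ^ 2 * w) ^ (b - j) * ((y * w) ^ (3 * j) * g j) =
      y ^ (2 * b) * w ^ (3 * b) * ∑ j ∈ Finset.range (b + 1), y ^ j * g j := by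
  rw [Finset.mul_sum]
  refine Finset.sum_congr rfl fun j hj => ?_
  obtain ⟨c, rfl⟩ := Nat.exists_eq_add_of_le (show j ≤ b by
    have := Finset.mem_range.1 hj; omega)
  rw [Nat.add_sub_cancel_left]
  ring

/-- **Lemma A (two levels).** -/
theorem laStmt2 [CharZero k] {b m : ℕ} (hm : 1 ≤ m) (hmb : m ≤ b) :
    LAStmt2 k b (H142.Qs b m) := by
  classical
  set al : ℤ := (9 * b + 1) * m with hal0
  set ga : ℤ := 3 * ((9 * b + 1) * m) + 6 * ((9 * b + 1) * (b - m) - 1) with hga0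
  have hal : 1 ≤ al := by
    have h1 : (1 : ℤ) ≤ m := by exact_mod_cast hm
    have h2 : (0 : ℤ) ≤ b := by positivity
    nlinarith
  obtain ⟨p, q, r, hpq, hF, hw⟩ := exists_cubic (k := k) al ga hal
  set Y := YY k al ga hal with hY
  set w : A k := eval₂ (io k) Y (Wp p q r) with hwdef
  set y : A k := HahnSeries.C (AddMonoidAlgebra.single ((1 : ℤ), (0 : ℤ)) 1) with hy
  obtain ⟨ew, cw, hcw, hlw⟩ := exists_lead hw
  refine ⟨(AddMonoidAlgebra.single ((1 : ℤ), (0 : ℤ)) 1) ^ (2 * b) * cw ^ (3 * b),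
    pt (y * w) Y, ?_, ?_⟩
  · refine mul_ne_zero (pow_ne_zero _ ?_) (pow_ne_zero _ hcw)
    intro h
    have h1 : (AddMonoidAlgebra.single ((1 : ℤ), (0 : ℤ)) 1 : R k).coeff (1, 0) = 0 := by
      rw [h]; rfl
    rw [AddMonoidAlgebra.coeff_single, Finsupp.single_eq_same] at h1
    exact one_ne_zero h1
  intro P hP hP0
  set F : MvPolynomial (Fin 3) (L2 k) := Fp (HahnSeries.C p) (HahnSeries.C q) (HahnSeries.C r)
    with hFdef
  have hFc : MvPolynomial.coeff (Finsupp.single 1 3) F ≠ 0 := by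
    rw [hFdef, Fp_coeff]
    intro h
    apply hpq
    apply HahnSeries.C_injective (Γ := ℤ)
    rw [map_zero, ← h]
    simp only [map_add, map_mul, map_neg, map_ofNat]
  obtain ⟨G, hG1, hG2, hG3⟩ := H693.exists_digits F (Fp_homog _ _ _) hFc b P hP
  have hGne : ∃ j ≤ b, G j ≠ 0 := by
    by_contra hc
    push Not at hc
    apply hP0
    rw [hG3]
    refine Finset.sum_eq_zero fun j hj => ?_
    rw [hc j (by have := Finset.mem_range.1 hj; omega), mul_zero]
  obtain ⟨ν, hν1, hν2⟩ := exists_level b G hGne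
  set G' : ℕ → MvPolynomial (Fin 3) (HahnSeries ℤ k) :=
    fun j => cpart (ν - ((b : ℤ) - j)) (G j) with hG'
  set g : ℕ → A k := fun j => eval₂ (io k) Y (G' j) with hg
  have hlead : Lead (eval₂ (io2 k) (pt (y * w) Y) P) ν
      (y ^ (2 * b) * w ^ (3 * b) * ∑ j ∈ Finset.range (b + 1), y ^ j * g j) := by
    rw [← sum_ring, hG3, eval₂_sum]
    refine Lead.sum _ _ _ _ fun j hj => ?_
    have hj' : j ≤ b := by have := Finset.mem_range.1 hj; omega
    rw [eval₂_mul, eval₂_pow]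
    have h1 := (lead_F (y * w) Y hF).pow (b - j)
    have h2 := lead_eval2 (io k) (io2 k) (fun _ _ => rfl) (pt (y * w) Y) _
      (lead_pt (y * w) Y) (G j) (ν - ((b : ℤ) - j)) (hν1 j hj')
    rw [eval2_mul_homog (io k) Y (y * w) (cpart_homog (hG1 j))] at h2
    have h3 := h1.mul h2
    rw [show (((b - j : ℕ) : ℤ)) * 1 + (ν - ((b : ℤ) - j)) = ν by
      rw [Nat.cast_sub hj']; ring] at h3
    exact h3
  have hyj : ∀ j : ℕ, y ^ j = HahnSeries.C (AddMonoidAlgebra.single ((j : ℤ), (0 : ℤ)) (1 : k)) := by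
    intro j
    rw [hy, ← map_pow, AddMonoidAlgebra.single_pow]
    simp
  set H : A k := ∑ j ∈ Finset.range (b + 1), y ^ j * g j with hH
  have hH' : H = ∑ j ∈ Finset.range (b + 1),
      HahnSeries.C (AddMonoidAlgebra.single ((j : ℤ), (0 : ℤ)) (1 : k)) * g j := by
    rw [hH]
    exact Finset.sum_congr rfl fun j _ => by rw [hyj]
  have hgy : ∀ j n v, cf (g j) n v ≠ 0 → v.1 = 0 := by
    intro j n v hne
    exact Gr.eval (ψ := ψy) (gr_YY (k := k) al ga hal) (G' j) n v hne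
  have hgne : ∃ j ≤ b, g j ≠ 0 := by
    obtain ⟨j, hj, hj0⟩ := hν2
    refine ⟨j, hj, fun h => hj0 ?_⟩
    exact inj_YY al ga hal (cpart_homog (hG1 j))
      (fun α hα => hG2 j α (mem_support_of_cpart hα)) h
  have hHne : H ≠ 0 := H142.win_ne_zero g hgy H hH' hgne
  have hgsh : ∀ j : ℕ, Sh (6 * al) (j * (27 * al - 9 * ga)) (9 * j) (g j) (g j) := by
    intro j
    have := Sh.eval (sh_YY_self (k := k) al ga hal) (cpart_homog (e := ν - ((b : ℤ) - j)) (hG1 j))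
    rw [show (((3 * j : ℕ) : ℤ)) * (9 * al - 3 * ga) = j * (27 * al - 9 * ga) by push_cast; ring,
      show (((3 * j : ℕ) : ℤ)) * 3 = 9 * j by push_cast; ring] at this
    exact this
  have hg0 : ∀ n v, cf (g 0) n v ≠ 0 → v = 0 := by
    intro n v hne
    have h1 : Gr (AddMonoidHom.id (ℤ × ℤ)) 0 (g 0) := by
      rw [hg]
      simp only
      rw [eval₂_eq']
      refine Gr.sum _ fun α hα => ?_
      have h2 : (G' 0).IsHomogeneous (3 * 0) := cpart_homog (hG1 0)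
      have h3 := homog_sum h2 hα
      have h4 : α 0 = 0 := by omega
      have h5 : α 1 = 0 := by omega
      have h6 : α 2 = 0 := by omega
      rw [Fin.prod_univ_three, h4, h5, h6, pow_zero, pow_zero, pow_zero, mul_one, mul_one, mul_one]
      exact gr_io _
    exact h1 n v hne
  obtain ⟨n, f, hf, hlH⟩ := exists_lead hHne
  refine ⟨ν, (((2 * b : ℕ) : ℤ) * 0 + ((3 * b : ℕ) : ℤ) * ew) + n, f, hf, ?_, ?_⟩
  · have h1 := H142.window_supp hm hmb hal0 hga0 g hgsh hgy hg0 n H hH' hlH.1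
    rw [hlH.2] at h1
    exact h1
  · rw [hlead.2]
    have h1 := (((lead_C (B := R k) (AddMonoidAlgebra.single ((1 : ℤ), (0 : ℤ)) 1)).pow
      (2 * b)).mul (hlw.pow (3 * b))).mul hlH
    exact h1.2

end Vale.Agent.P279.H662
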