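import Vale.Agent.P279.H662.Hahn
import Mathlib.RingTheory.MvPolynomial.Homogeneous

/-!
# Coefficientwise ring homomorphisms of Laurent series, gradings, zeroth coefficient
-/

namespace Vale.Agent.P279.H662

open HahnSeries

section MapRH

variable {B0 B : Type*} [CommRing B0] [CommRing B]

/-- The coefficientwise ring homomorphism of Laurent series. -/
noncomputable def mapH (f : B0 →+* B) : HahnSeries ℤ B0 →+* HahnSeries ℤ B where
  toFun x := x.map f
  map_zero' := by ext n; simp
  map_one' := by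
    ext n
    simp only [map_coeff, coeff_one]
    split <;> simp
  map_add' x y := by ext n; simp
  map_mul' x y := HahnSeries.map_mul (f : B0 →ₙ+* B)

@[simp] theorem mapH_coeff (f : B0 →+* B) (x : HahnSeries ℤ B0) (n : ℤ) :
    (mapH f x).coeff n = f (x.coeff n) := rfl

end MapRH

variable {k : Type*} [Field k]

/-- Constants as Laurent polynomials. -/
noncomputable abbrev CR (k : Type*) [Field k] : k →+* R k := algebraMap k (R k)

theorem CR_coeff (c : k) (v : ℤ × ℤ) : (CR k c).coeff v = if v = 0 then c else 0 := by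
  rw [AddMonoidAlgebra.coe_algebraMap]
  simp [AddMonoidAlgebra.coeff_single, Finsupp.single_apply, eq_comm]

/-- The embedding of `k((t))` into `k[ℤ × ℤ]((t))`. -/
noncomputable abbrev io (k : Type*) [Field k] : HahnSeries ℤ k →+* A k := mapH (CR k)

theorem cf_io (x : HahnSeries ℤ k) (n : ℤ) (v : ℤ × ℤ) :
    cf (io k x) n v = if v = 0 then x.coeff n else 0 := by
  rw [cf, mapH_coeff, CR_coeff]

theorem sh_io (x : HahnSeries ℤ k) (l : ℤ) : Sh l 0 0 (io k x) (io k x) := by
  intro n v
  rw [cf_io, cf_io]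
  by_cases h : v = 0
  · subst h; simp
  · have h' : ¬ ((v.1, v.2 + 0) : ℤ × ℤ) = 0 := by simpa using h
    rw [if_neg h, if_neg h']

theorem Sh.pow {l a c : ℤ} {f g : A k} (h : Sh l a c f g) (n : ℕ) :
    Sh l (n * a) (n * c) (f ^ n) (g ^ n) := by
  induction n with
  | zero =>
    have := sh_io (k := k) 1 l
    simpa using this
  | succ n ih =>
    have := ih.mul h
    rw [pow_succ, pow_succ]
    rwa [show (n : ℤ) * a + a = ((n + 1 : ℕ) : ℤ) * a by push_cast; ring,
      show (n : ℤ) * c + c = ((n + 1 : ℕ) : ℤ) * c by push_cast; ring] at this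

theorem Sh.eval {l a c : ℤ} {f g : Fin 3 → A k} (h : ∀ i, Sh l a c (f i) (g i)) {d : ℕ}
    {G : MvPolynomial (Fin 3) (HahnSeries ℤ k)} (hG : G.IsHomogeneous d) :
    Sh l (d * a) (d * c) (MvPolynomial.eval₂ (io k) f G) (MvPolynomial.eval₂ (io k) g G) := by
  rw [MvPolynomial.eval₂_eq', MvPolynomial.eval₂_eq']
  refine Sh.sum _ fun α hα => ?_
  have h1 : α 0 + α 1 + α 2 = d := by
    have := hG (MvPolynomial.mem_support_iff.1 hα)
    rw [Finsupp.weight_apply, Finsupp.sum_fintype _ _ (by simp)] at this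
    simpa [Fin.sum_univ_three] using this
  have h2 := (sh_io (MvPolynomial.coeff α G) l).mul
    ((((h 0).pow (α 0)).mul ((h 1).pow (α 1))).mul ((h 2).pow (α 2)))
  rw [Fin.prod_univ_three, Fin.prod_univ_three]
  rw [show (d : ℤ) * a = 0 + (((α 0 : ℕ) : ℤ) * a + ((α 1 : ℕ) : ℤ) * a + ((α 2 : ℕ) : ℤ) * a) by
      rw [← h1]; push_cast; ring,
    show (d : ℤ) * c = 0 + (((α 0 : ℕ) : ℤ) * c + ((α 1 : ℕ) : ℤ) * c + ((α 2 : ℕ) : ℤ) * c) by
      rw [← h1]; push_cast; ring]
  exact h2

/-- All Laurent monomials of `f` have degree `d` for the grading `ψ`. -/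
def Gr {G : Type*} [AddCommGroup G] (ψ : ℤ × ℤ →+ G) (d : G) (f : A k) : Prop :=
  ∀ n v, cf f n v ≠ 0 → ψ v = d

section Gr

variable {G : Type*} [AddCommGroup G] {ψ : ℤ × ℤ →+ G} {d d' : G} {f g : A k}

theorem gr_zero : Gr ψ d (0 : A k) := fun n v h => absurd (cf_zero n v) h

theorem Gr.add (hf : Gr ψ d f) (hg : Gr ψ d g) : Gr ψ d (f + g) := fun n v h => by
  rw [cf_add] at h
  by_contra hc
  refine h ?_
  rw [not_not.1 (fun h' => hc (hf n v h')), not_not.1 (fun h' => hc (hg n v h')), add_zero]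

theorem Gr.sum {ι : Type*} (s : Finset ι) {F : ι → A k} (h : ∀ i ∈ s, Gr ψ d (F i)) :
    Gr ψ d (∑ i ∈ s, F i) := by
  classical
  induction s using Finset.induction_on with
  | empty => simpa using gr_zero
  | insert i s hi ih =>
    rw [Finset.sum_insert hi]
    exact (h i (Finset.mem_insert_self i s)).add
      (ih fun j hj => h j (Finset.mem_insert_of_mem hj))

theorem Gr.mul (hf : Gr ψ d f) (hg : Gr ψ d' g) : Gr ψ (d + d') (f * g) := fun n v h => by
  rw [cf_mul] at h
  obtain ⟨q, hq⟩ : ∃ q : ℤ × (ℤ × ℤ), cf f q.1 q.2 * cf g (n - q.1) (v - q.2) ≠ 0 := by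
    by_contra hc
    push Not at hc
    exact h (finsum_eq_zero_of_forall_eq_zero hc)
  have h1 := hf _ _ (left_ne_zero_of_mul hq)
  have h2 := hg _ _ (right_ne_zero_of_mul hq)
  rw [← h1, ← h2, ← map_add]
  congr 1
  abel

theorem gr_io (x : HahnSeries ℤ k) : Gr ψ 0 (io k x) := fun n v h => by
  rw [cf_io] at h
  have : v = 0 := by
    by_contra hc
    exact h (if_neg hc)
  rw [this, map_zero]

theorem gr_one : Gr ψ 0 (1 : A k) := by
  have := gr_io (k := k) (ψ := ψ) 1
  rwa [map_one] at this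

theorem Gr.pow (hf : Gr ψ d f) (n : ℕ) : Gr ψ (n • d) (f ^ n) := by
  induction n with
  | zero => simpa using gr_one
  | succ n ih =>
    rw [pow_succ, succ_nsmul]
    exact ih.mul hf

theorem Gr.eval {F : Fin 3 → A k} (h : ∀ i, Gr ψ 0 (F i))
    (P : MvPolynomial (Fin 3) (HahnSeries ℤ k)) :
    Gr ψ 0 (MvPolynomial.eval₂ (io k) F P) := by
  rw [MvPolynomial.eval₂_eq']
  refine Gr.sum _ fun α _ => ?_
  have := (gr_io (ψ := ψ) (MvPolynomial.coeff α P)).mul
    ((((h 0).pow (α 0)).mul ((h 1).pow (α 1))).mul ((h 2).pow (α 2)))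
  rw [Fin.prod_univ_three]
  simpa using this

end Gr

/-- The coefficient of the Laurent monomial `1`. -/
noncomputable def ext0 (f : A k) : HahnSeries ℤ k where
  coeff n := cf f n 0
  isPWO_support' := f.isPWO_support.mono fun n hn => by
    rw [Function.mem_support] at hn
    intro h
    exact hn (by rw [cf, h]; rfl)

@[simp] theorem ext0_coeff (f : A k) (n : ℤ) : (ext0 f).coeff n = cf f n 0 := rfl

theorem ext0_io_mul (x : HahnSeries ℤ k) (f : A k) : ext0 (io k x * f) = x * ext0 f := by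
  classical
  ext n
  obtain ⟨s, hs0, hs⟩ := coeff_mul_finset (io k x) f n
  obtain ⟨s', hs0', hs'⟩ := coeff_mul_finset x (ext0 f) n
  rw [ext0_coeff, hs', cf, hs, AddMonoidAlgebra.coeff_sum, Finsupp.finsetSum_apply]
  have key : ∀ i : ℤ, ((io k x).coeff i * f.coeff (n - i)).coeff 0 =
      x.coeff i * (ext0 f).coeff (n - i) := by
    intro i
    rw [mapH_coeff, ext0_coeff, AddMonoidAlgebra.coe_algebraMap, Function.comp_apply]
    rw [AddMonoidAlgebra.coeff_single_zero_mul]
    rfl
  rw [Finset.sum_congr rfl fun i _ => key i]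
  have e1 : ∑ i ∈ s, x.coeff i * (ext0 f).coeff (n - i) =
      ∑ i ∈ s ∪ s', x.coeff i * (ext0 f).coeff (n - i) := by
    refine Finset.sum_subset Finset.subset_union_left fun i _ hi => ?_
    by_contra hne
    refine hi (hs0 i (fun h => ?_) (fun h => ?_))
    · rw [mapH_coeff] at h
      refine hne ?_
      rw [(FaithfulSMul.algebraMap_injective k (R k)) (h.trans (map_zero _).symm), zero_mul]
    · refine hne ?_
      rw [ext0_coeff, cf, h]
      simp
  have e2 : ∑ i ∈ s', x.coeff i * (ext0 f).coeff (n - i) =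
      ∑ i ∈ s ∪ s', x.coeff i * (ext0 f).coeff (n - i) := by
    refine Finset.sum_subset Finset.subset_union_right fun i _ hi => ?_
    by_contra hne
    exact hi (hs0' i (left_ne_zero_of_mul hne) (right_ne_zero_of_mul hne))
  rw [e1, e2]

end Vale.Agent.P279.H662
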