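import Vale.Agent.P279.H662.Map

/-!
# Theta series and the cubic relation
-/

namespace Vale.Agent.P279.H662

open HahnSeries

variable {k : Type*} [Field k]

/-- The exponent of `t`. -/
def qq (al ga c p : ℤ) : ℤ := al * p ^ 2 - ga * p + c

theorem qq_ge {al ga c p : ℤ} (hal : 1 ≤ al) : c - ga ^ 2 ≤ qq al ga c p := by
  unfold qq
  nlinarith [sq_nonneg (2 * p - ga), sq_nonneg p, mul_nonneg (sub_nonneg.2 hal) (sq_nonneg p),
    sq_nonneg ga]

theorem abs_le_of_qq {al ga c p n : ℤ} (hal : 1 ≤ al) (h : qq al ga c p = n) :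
    |p| ≤ |n| + |ga| + |c| := by
  unfold qq at h
  by_contra hcon
  push Not at hcon
  have h0 : 0 ≤ |n| + |ga| + |c| := by positivity
  have h1 : 1 ≤ |p| := by omega
  have h2 : |p| ^ 2 = p ^ 2 := sq_abs p
  have h3 : al * p ^ 2 = n + ga * p - c := by linarith
  have h4 : p ^ 2 ≤ al * p ^ 2 := by nlinarith [sq_nonneg p]
  have h5 : ga * p ≤ |ga| * |p| := by
    rw [← abs_mul]
    exact le_abs_self _
  have h6 : n ≤ |n| := le_abs_self n
  have h7 : -c ≤ |c| := neg_le_abs c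
  have h8 : 0 ≤ |n| := abs_nonneg n
  have h9 : 0 ≤ |c| := abs_nonneg c
  nlinarith

/-- The coefficient of `t ^ n` of a theta series. -/
noncomputable def thC (k : Type*) [Field k] (al ga c r n : ℤ) (hal : 1 ≤ al) : R k :=
  AddMonoidAlgebra.ofCoeff
    (Finsupp.onFinset (({0} : Finset ℤ) ×ˢ Finset.Icc (-(|n| + |ga| + |c|)) (|n| + |ga| + |c|))
      (fun v => if v.1 = 0 ∧ qq al ga c v.2 = n ∧ (3 : ℤ) ∣ v.2 - r then (1 : k) else 0)
      (fun v hv => by
        have hv' : v.1 = 0 ∧ qq al ga c v.2 = n ∧ (3 : ℤ) ∣ v.2 - r := by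
          by_contra h
          exact hv (if_neg h)
        have := abs_le_of_qq hal hv'.2.1
        rw [Finset.mem_product, Finset.mem_singleton, Finset.mem_Icc]
        exact ⟨hv'.1, abs_le.1 this⟩))

/-- The theta series `∑_{p ≡ r mod 3} t ^ (al p ^ 2 - ga p + c) x ^ p`. -/
noncomputable def th (k : Type*) [Field k] (al ga c r : ℤ) (hal : 1 ≤ al) : A k :=
  ofSuppBddBelow (fun n => thC k al ga c r n hal) ⟨c - ga ^ 2, fun n hn => by
    by_contra hlt
    push Not at hlt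
    rw [Function.mem_support] at hn
    refine hn ?_
    ext v
    change (if v.1 = 0 ∧ qq al ga c v.2 = n ∧ (3 : ℤ) ∣ v.2 - r then (1 : k) else 0) = 0
    rw [if_neg]
    rintro ⟨-, h, -⟩
    have := qq_ge (al := al) (ga := ga) (c := c) (p := v.2) hal
    omega⟩

theorem cf_th (al ga c r : ℤ) (hal : 1 ≤ al) (n : ℤ) (v : ℤ × ℤ) :
    cf (th k al ga c r hal) n v =
      if v.1 = 0 ∧ qq al ga c v.2 = n ∧ (3 : ℤ) ∣ v.2 - r then 1 else 0 := rfl

theorem sh_th (al ga c ga' c' r : ℤ) (hal : 1 ≤ al) :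
    Sh (ga - ga') (c' - c) 0 (th k al ga c r hal) (th k al ga' c' r hal) := by
  intro n v
  rw [cf_th, cf_th]
  congr 1
  refine propext (and_congr Iff.rfl (and_congr ?_ ?_))
  · unfold qq
    constructor <;> intro h <;> simp only [add_zero] at * <;> linarith
  · simp

theorem sh_th_shift (al ga c r s : ℤ) (hal : 1 ≤ al) :
    Sh (2 * al * s) (al * s ^ 2 - ga * s) s (th k al ga c r hal) (th k al ga c (r + s) hal) := by
  intro n v
  rw [cf_th, cf_th]
  congr 1
  refine propext (and_congr Iff.rfl (and_congr ?_ ?_))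
  · unfold qq
    constructor <;> intro h <;> simp only at * <;> linarith
  · rw [show v.2 + s - (r + s) = v.2 - r by ring]

theorem th_add_three (al ga c r : ℤ) (hal : 1 ≤ al) :
    th k al ga c (r + 3) hal = th k al ga c r hal := by
  refine ext_cf fun n v => ?_
  rw [cf_th, cf_th]
  congr 1
  refine propext (and_congr Iff.rfl (and_congr Iff.rfl ?_))
  constructor
  · rintro ⟨q, hq⟩
    exact ⟨q + 1, by linarith⟩
  · rintro ⟨q, hq⟩
    exact ⟨q - 1, by linarith⟩

theorem sh_th_three (al ga c r : ℤ) (hal : 1 ≤ al) :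
    Sh (6 * al) (9 * al - 3 * ga) 3 (th k al ga c r hal) (th k al ga c r hal) := by
  have := sh_th_shift (k := k) al ga c r 3 hal
  rw [th_add_three] at this
  rwa [show 2 * al * 3 = 6 * al by ring, show al * 3 ^ 2 - ga * 3 = 9 * al - 3 * ga by ring] at this

/-- The `y`-exponent. -/
abbrev ψy : ℤ × ℤ →+ ℤ := AddMonoidHom.fst ℤ ℤ

/-- The `y`-exponent and the `x`-exponent modulo `3`. -/
def ψ3 : ℤ × ℤ →+ ℤ × ZMod 3 :=
  AddMonoidHom.prodMap (AddMonoidHom.id ℤ) (Int.castAddHom (ZMod 3))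

theorem gr_th_y (al ga c r : ℤ) (hal : 1 ≤ al) : Gr ψy 0 (th k al ga c r hal) := by
  intro n v h
  rw [cf_th] at h
  by_contra hc
  exact h (if_neg fun h' => hc h'.1)

theorem gr_th_3 (al ga c r : ℤ) (hal : 1 ≤ al) :
    Gr ψ3 (0, (r : ZMod 3)) (th k al ga c r hal) := by
  intro n v h
  rw [cf_th] at h
  have h' : v.1 = 0 ∧ qq al ga c v.2 = n ∧ (3 : ℤ) ∣ v.2 - r := by
    by_contra hc
    exact h (if_neg hc)
  ext
  · exact h'.1
  · change ((v.2 : ℤ) : ZMod 3) = (r : ZMod 3)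
    rw [← sub_eq_zero, ← Int.cast_sub, ZMod.intCast_zmod_eq_zero_iff_dvd]
    exact h'.2.2

theorem th_ne_zero (al ga c r : ℤ) (hal : 1 ≤ al) : th k al ga c r hal ≠ 0 := by
  intro h
  have := cf_th (k := k) al ga c r hal (qq al ga c r) (0, r)
  rw [h, if_pos ⟨rfl, rfl, by simp⟩, cf_zero] at this
  exact zero_ne_one this

theorem th_eq_mul (al ga c r : ℤ) (hal : 1 ≤ al) :
    th k al ga c r hal = io k (single c 1) * th k al ga 0 r hal := by
  have h1 : io k (single c 1) = single c 1 := by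
    ext n
    rw [mapH_coeff, coeff_single, coeff_single]
    split
    · rw [map_one]
    · rw [map_zero]
  rw [h1]
  refine ext_cf fun n v => ?_
  have h2 : cf (single c 1 * th k al ga 0 r hal) n v = cf (th k al ga 0 r hal) (n - c) v := by
    rw [cf, coeff_single_mul, one_mul]
    rfl
  rw [h2, cf_th, cf_th]
  congr 1
  refine propext (and_congr Iff.rfl (and_congr ?_ Iff.rfl))
  unfold qq
  constructor <;> intro h <;> linarith

/-- A series with a shear symmetry is determined by its coefficient at `x ^ 0`. -/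
theorem eq_zero_of_sh {a l : ℤ} {f : A k} (h : Sh l a 3 f f) (h3 : Gr ψ3 0 f)
    (h0 : ext0 f = 0) : f = 0 := by
  have key : ∀ q : ℤ, ∀ n, cf f n (0, 3 * q) = 0 := by
    intro q
    induction q using Int.induction_on with
    | zero =>
      intro n
      have h1 : (ext0 f).coeff n = 0 := by rw [h0]; rfl
      exact h1
    | succ i ih =>
      intro n
      have := h (n - l * (3 * i) - a) (0, 3 * i)
      rw [ih] at this
      simp only at this
      rw [show n - l * (3 * (i : ℤ)) - a + l * (3 * (i : ℤ)) + a = n by ring,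
        show 3 * (i : ℤ) + 3 = 3 * ((i : ℤ) + 1) by ring] at this
      exact this
    | pred i ih =>
      intro n
      have := h n (0, 3 * (-i - 1))
      simp only at this
      rw [← this, show (3 : ℤ) * (-i - 1) + 3 = 3 * (-i) by ring]
      exact ih _
  refine ext_cf fun n v => ?_
  rw [cf_zero]
  by_contra hne
  have h4 := h3 n v hne
  have h5 : v.1 = 0 := congrArg Prod.fst h4
  have h6 : ((v.2 : ℤ) : ZMod 3) = 0 := congrArg Prod.snd h4
  rw [ZMod.intCast_zmod_eq_zero_iff_dvd] at h6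
  obtain ⟨q, hq⟩ := h6
  refine hne ?_
  have : v = (0, 3 * q) := Prod.ext h5 hq
  rw [this]
  exact key q n

/-- The cubic relation between the three theta series. -/
theorem exists_relation (al ga : ℤ) (hal : 1 ≤ al) :
    ∃ a b : HahnSeries ℤ k, a ≠ 0 ∧
      io k a * (th k al ga 0 0 hal ^ 3 + th k al ga 0 1 hal ^ 3 + th k al ga 0 2 hal ^ 3) =
        io k b * (th k al ga 0 0 hal * th k al ga 0 1 hal * th k al ga 0 2 hal) := by
  set x0 := th k al ga 0 0 hal with hx0
  set x1 := th k al ga 0 1 hal with hx1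
  set x2 := th k al ga 0 2 hal with hx2
  set l : ℤ := 2 * al with hl
  set a1 : ℤ := al - ga with ha1
  have s01 : Sh l a1 1 x0 x1 := by
    have := sh_th_shift (k := k) al ga 0 0 1 hal
    simpa [hl, ha1] using this
  have s12 : Sh l a1 1 x1 x2 := by
    have := sh_th_shift (k := k) al ga 0 1 1 hal
    simpa [hl, ha1] using this
  have s20 : Sh l a1 1 x2 x0 := by
    have := sh_th_shift (k := k) al ga 0 2 1 hal
    rw [show (2 : ℤ) + 1 = 0 + 3 by norm_num, th_add_three] at this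
    simpa [hl, ha1] using this
  have hS : Sh l (3 * a1) 3 (x0 ^ 3 + x1 ^ 3 + x2 ^ 3) (x0 ^ 3 + x1 ^ 3 + x2 ^ 3) := by
    have := ((s20.pow 3).add (s01.pow 3)).add (s12.pow 3)
    rw [show x0 ^ 3 + x1 ^ 3 + x2 ^ 3 = x2 ^ 3 + x0 ^ 3 + x1 ^ 3 by ring]
    have h' : x0 ^ 3 + x1 ^ 3 + x2 ^ 3 = x2 ^ 3 + x0 ^ 3 + x1 ^ 3 := by ring
    rw [h'] at this
    simpa using this
  have hT : Sh l (3 * a1) 3 (x0 * x1 * x2) (x0 * x1 * x2) := by
    have := (s20.mul s01).mul s12
    have h' : x2 * x0 * x1 = x0 * x1 * x2 := by ring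
    rw [h'] at this
    rwa [show a1 + a1 + a1 = 3 * a1 by ring, show (1 : ℤ) + 1 + 1 = 3 by norm_num] at this
  have g0 : Gr ψ3 (0, ((0 : ℤ) : ZMod 3)) x0 := gr_th_3 al ga 0 0 hal
  have g1 : Gr ψ3 (0, ((1 : ℤ) : ZMod 3)) x1 := gr_th_3 al ga 0 1 hal
  have g2 : Gr ψ3 (0, ((2 : ℤ) : ZMod 3)) x2 := gr_th_3 al ga 0 2 hal
  have gS : Gr ψ3 0 (x0 ^ 3 + x1 ^ 3 + x2 ^ 3) := by
    refine Gr.add (Gr.add ?_ ?_) ?_
    · have := g0.pow 3
      rwa [show 3 • ((0 : ℤ), ((0 : ℤ) : ZMod 3)) = 0 by decide] at this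
    · have := g1.pow 3
      rwa [show 3 • ((0 : ℤ), ((1 : ℤ) : ZMod 3)) = 0 by decide] at this
    · have := g2.pow 3
      rwa [show 3 • ((0 : ℤ), ((2 : ℤ) : ZMod 3)) = 0 by decide] at this
  have gT : Gr ψ3 0 (x0 * x1 * x2) := by
    have := (g0.mul g1).mul g2
    rwa [show ((0 : ℤ), ((0 : ℤ) : ZMod 3)) + ((0 : ℤ), ((1 : ℤ) : ZMod 3)) +
      ((0 : ℤ), ((2 : ℤ) : ZMod 3)) = 0 by decide] at this
  refine ⟨ext0 (x0 * x1 * x2), ext0 (x0 ^ 3 + x1 ^ 3 + x2 ^ 3), ?_, ?_⟩
  · intro h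
    have := eq_zero_of_sh hT gT h
    have hz := mul_eq_zero.1 this
    rcases hz with hz | hz
    · rcases mul_eq_zero.1 hz with hz | hz
      · exact th_ne_zero _ _ _ _ _ hz
      · exact th_ne_zero _ _ _ _ _ hz
    · exact th_ne_zero _ _ _ _ _ hz
  · rw [← sub_eq_zero]
    set S := x0 ^ 3 + x1 ^ 3 + x2 ^ 3 with hSdef
    set T := x0 * x1 * x2 with hTdef
    have e0 : io k (ext0 T) * S + io k (-ext0 S) * T =
        io k (ext0 T) * S - io k (ext0 S) * T := by
      rw [map_neg]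
      ring
    have e1 : Sh l (3 * a1) 3 (io k (ext0 T) * S - io k (ext0 S) * T)
        (io k (ext0 T) * S - io k (ext0 S) * T) := by
      have h1 := (sh_io (ext0 T) l).mul hS
      have h2 := (sh_io (-ext0 S) l).mul hT
      have h3 := h1.add h2
      rw [e0] at h3
      simpa using h3
    have e2 : Gr ψ3 0 (io k (ext0 T) * S - io k (ext0 S) * T) := by
      have h1 := (gr_io (ψ := ψ3) (ext0 T)).mul gS
      have h2 := (gr_io (ψ := ψ3) (-ext0 S)).mul gT
      have h3 := h1.add h2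
      rw [e0] at h3
      simpa using h3
    refine eq_zero_of_sh e1 e2 ?_
    have h4 : ext0 (io k (ext0 T) * S - io k (ext0 S) * T) =
        ext0 (io k (ext0 T) * S) - ext0 (io k (ext0 S) * T) := by
      ext n
      simp [cf]
    rw [h4, ext0_io_mul, ext0_io_mul]
    ring

end Vale.Agent.P279.H662
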