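import Vale.Agent.P279.H662.Theta

/-!
# The three sections `Y` and their reduction
-/

namespace Vale.Agent.P279.H662

open HahnSeries

variable {k : Type*} [Field k]

/-- The Laurent monomial `x`. -/
noncomputable abbrev xx (k : Type*) [Field k] : R k := AddMonoidAlgebra.single ((0 : ℤ), (1 : ℤ)) 1

theorem xx_pow (n : ℕ) : (xx k) ^ n = AddMonoidAlgebra.single ((0 : ℤ), (n : ℤ)) 1 := by
  rw [AddMonoidAlgebra.single_pow]
  simp

/-- The three sections. -/
noncomputable def YY (k : Type*) [Field k] (al ga : ℤ) (hal : 1 ≤ al) : Fin 3 → A k :=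
  ![th k al ga 0 0 hal + 3 * th k al ga (2 * al) 1 hal + 3 * th k al ga (2 * al) 2 hal,
    th k al ga (2 * al) 1 hal + th k al ga (2 * al) 2 hal, th k al ga (2 * al) 1 hal]

theorem sh_three (l : ℤ) : Sh l 0 0 (3 : A k) (3 : A k) := by
  have := sh_io (k := k) 3 l
  rwa [map_ofNat] at this

theorem gr_three {G : Type*} [AddCommGroup G] {ψ : ℤ × ℤ →+ G} : Gr ψ 0 (3 : A k) := by
  have := gr_io (k := k) (ψ := ψ) 3
  rwa [map_ofNat] at this

theorem sh_YY_self (al ga : ℤ) (hal : 1 ≤ al) (i : Fin 3) :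
    Sh (6 * al) (9 * al - 3 * ga) 3 (YY k al ga hal i) (YY k al ga hal i) := by
  have h0 := sh_th_three (k := k) al ga 0 0 hal
  have h1 := sh_th_three (k := k) al ga (2 * al) 1 hal
  have h2 := sh_th_three (k := k) al ga (2 * al) 2 hal
  fin_cases i
  · have e1 := (sh_three (k := k) (6 * al)).mul h1
    have e2 := (sh_three (k := k) (6 * al)).mul h2
    rw [zero_add, zero_add] at e1 e2
    exact (h0.add e1).add e2
  · exact h1.add h2
  · exact h1

theorem sh_YY (al ga : ℤ) (hal : 1 ≤ al) (i : Fin 3) :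
    Sh (3 * al - ga) 0 0 (YY k al (3 * al) hal i) (YY k al ga hal i) := by
  have h0 := sh_th (k := k) al (3 * al) 0 ga 0 0 hal
  have h1 := sh_th (k := k) al (3 * al) (2 * al) ga (2 * al) 1 hal
  have h2 := sh_th (k := k) al (3 * al) (2 * al) ga (2 * al) 2 hal
  rw [sub_self] at h0 h1 h2
  fin_cases i
  · have e1 := (sh_three (k := k) (3 * al - ga)).mul h1
    have e2 := (sh_three (k := k) (3 * al - ga)).mul h2
    rw [zero_add] at e1 e2
    exact (h0.add e1).add e2
  · exact h1.add h2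
  · exact h1

theorem gr_YY (al ga : ℤ) (hal : 1 ≤ al) (i : Fin 3) : Gr ψy 0 (YY k al ga hal i) := by
  have h0 := gr_th_y (k := k) al ga 0 0 hal
  have h1 := gr_th_y (k := k) al ga (2 * al) 1 hal
  have h2 := gr_th_y (k := k) al ga (2 * al) 2 hal
  have h3 := gr_three (k := k) (ψ := ψy)
  fin_cases i
  · have := (h0.add (by simpa using h3.mul h1)).add (by simpa using h3.mul h2)
    exact this
  · exact h1.add h2
  · exact h1

theorem lead_th0 (al : ℤ) (hal : 1 ≤ al) :
    Lead (th k al (3 * al) 0 0 hal) 0 (1 + (xx k) ^ 3) := by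
  constructor
  · intro n hn
    ext v
    change (if v.1 = 0 ∧ qq al (3 * al) 0 v.2 = n ∧ (3 : ℤ) ∣ v.2 - 0 then (1 : k) else 0) = 0
    rw [if_neg]
    rintro ⟨-, h, q, hq⟩
    rw [sub_zero] at hq
    rw [hq] at h
    unfold qq at h
    have h1 : 0 ≤ q * (q - 1) := by
      rcases le_or_gt q 0 with h' | h' <;> nlinarith
    nlinarith
  · ext v
    change (if v.1 = 0 ∧ qq al (3 * al) 0 v.2 = 0 ∧ (3 : ℤ) ∣ v.2 - 0 then (1 : k) else 0) =
      (1 + (xx k) ^ 3).coeff v
    rw [xx_pow, AddMonoidAlgebra.one_def, AddMonoidAlgebra.coeff_add, Finsupp.add_apply,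
      AddMonoidAlgebra.coeff_single, AddMonoidAlgebra.coeff_single, Finsupp.single_apply,
      Finsupp.single_apply]
    by_cases h1 : v = 0
    · subst h1
      simp [qq, Prod.ext_iff]
    by_cases h2 : v = (0, 3)
    · subst h2
      have : qq al (3 * al) 0 3 = 0 := by unfold qq; ring
      simp [this, Prod.ext_iff]
    rw [if_neg, if_neg (fun h => h1 h.symm), if_neg (fun h => h2 h.symm), add_zero]
    rintro ⟨h3, h4, -⟩
    unfold qq at h4
    have h5 : al * (v.2 * (v.2 - 3)) = 0 := by linarith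
    rcases mul_eq_zero.1 h5 with h6 | h6
    · omega
    rcases mul_eq_zero.1 h6 with h7 | h7
    · exact h1 (Prod.ext h3 h7)
    · exact h2 (Prod.ext h3 (by simp only; omega))

theorem lead_th1 (al : ℤ) (hal : 1 ≤ al) :
    Lead (th k al (3 * al) (2 * al) 1 hal) 0 (xx k) := by
  constructor
  · intro n hn
    ext v
    change (if v.1 = 0 ∧ qq al (3 * al) (2 * al) v.2 = n ∧ (3 : ℤ) ∣ v.2 - 1 then (1 : k)
      else 0) = 0
    rw [if_neg]
    rintro ⟨-, h, q, hq⟩
    have hq' : v.2 = 1 + 3 * q := by linarith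
    rw [hq'] at h
    unfold qq at h
    have h1 : 0 ≤ q * (3 * q - 1) := by
      rcases le_or_gt q 0 with h' | h' <;> nlinarith
    nlinarith
  · ext v
    change (if v.1 = 0 ∧ qq al (3 * al) (2 * al) v.2 = 0 ∧ (3 : ℤ) ∣ v.2 - 1 then (1 : k)
      else 0) = (xx k).coeff v
    rw [AddMonoidAlgebra.coeff_single, Finsupp.single_apply]
    by_cases h1 : v = (0, 1)
    · subst h1
      have : qq al (3 * al) (2 * al) 1 = 0 := by unfold qq; ring
      simp [this]
    rw [if_neg, if_neg (fun h => h1 h.symm)]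
    rintro ⟨h3, h4, h8⟩
    unfold qq at h4
    have h5 : al * ((v.2 - 1) * (v.2 - 2)) = 0 := by linarith
    rcases mul_eq_zero.1 h5 with h6 | h6
    · omega
    rcases mul_eq_zero.1 h6 with h7 | h7
    · exact h1 (Prod.ext h3 (by simp only; omega))
    · omega

theorem lead_th2 (al : ℤ) (hal : 1 ≤ al) :
    Lead (th k al (3 * al) (2 * al) 2 hal) 0 ((xx k) ^ 2) := by
  constructor
  · intro n hn
    ext v
    change (if v.1 = 0 ∧ qq al (3 * al) (2 * al) v.2 = n ∧ (3 : ℤ) ∣ v.2 - 2 then (1 : k)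
      else 0) = 0
    rw [if_neg]
    rintro ⟨-, h, q, hq⟩
    have hq' : v.2 = 2 + 3 * q := by linarith
    rw [hq'] at h
    unfold qq at h
    have h1 : 0 ≤ q * (3 * q + 1) := by
      rcases le_or_gt 0 q with h' | h' <;> nlinarith
    nlinarith
  · ext v
    change (if v.1 = 0 ∧ qq al (3 * al) (2 * al) v.2 = 0 ∧ (3 : ℤ) ∣ v.2 - 2 then (1 : k)
      else 0) = ((xx k) ^ 2).coeff v
    rw [xx_pow, AddMonoidAlgebra.coeff_single, Finsupp.single_apply]
    by_cases h1 : v = (0, 2)
    · subst h1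
      have : qq al (3 * al) (2 * al) 2 = 0 := by unfold qq; ring
      simp [this]
    rw [if_neg, if_neg (fun h => h1 h.symm)]
    rintro ⟨h3, h4, h8⟩
    unfold qq at h4
    have h5 : al * ((v.2 - 1) * (v.2 - 2)) = 0 := by linarith
    rcases mul_eq_zero.1 h5 with h6 | h6
    · omega
    rcases mul_eq_zero.1 h6 with h7 | h7
    · omega
    · exact h1 (Prod.ext h3 (by simp only; omega))

theorem lead_three : Lead (3 : A k) 0 3 := by
  have := lead_C (3 : R k)
  rwa [map_ofNat] at this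

theorem lead_YY (al : ℤ) (hal : 1 ≤ al) (i : Fin 3) :
    Lead (YY k al (3 * al) hal i) 0 ((![(1 + xx k) ^ 3, xx k * (1 + xx k), xx k] : Fin 3 → R k) i) := by
  have h0 := lead_th0 (k := k) al hal
  have h1 := lead_th1 (k := k) al hal
  have h2 := lead_th2 (k := k) al hal
  have h3 := lead_three (k := k)
  fin_cases i
  · have e1 := h3.mul h1
    have e2 := h3.mul h2
    rw [zero_add] at e1 e2
    have := (h0.add e1).add e2
    rw [show 1 + xx k ^ 3 + 3 * xx k + 3 * xx k ^ 2 = (1 + xx k) ^ 3 by ring] at this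
    exact this
  · have := h1.add h2
    rw [show xx k + xx k ^ 2 = xx k * (1 + xx k) by ring] at this
    exact this
  · exact h1

end Vale.Agent.P279.H662
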